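import Vale.Agent.Lib.P243S.Final

open MeasureTheory

/-- A lower bound for the total base area of a finite covering of a convex body `K` in Euclidean
three-space by cylinders, in terms of the asymmetry of `K`.  Suppose that for a point `c` and a
number `s > 0` one has `K - c ⊆ -s (K - c)`, that is `c - s⁻¹ (p - c) ∈ K` for all `p ∈ K`.  Then the
total base area is at least `2 / (1 + s) ^ 2` times the smallest area of an orthogonal projection of
`K`.  The cylinder number `i` has axis direction `e i 2`, where `e i` is an orthonormal frame; its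
base `B i` is described in the orthonormal coordinates `(inner (e i 0) x, inner (e i 1) x)` of the
plane orthogonal to the axis, and `volume` on `ℝ × ℝ` is planar Lebesgue measure.  Bases may be
arbitrary sets (outer measure).  The infimum runs over all orthonormal frames `f`, that is over all
projection directions `f 2`. -/
theorem Vale.Agent.Results.P243.HalfAreaAsymmetry.result {ι : Type*} [Fintype ι]
    (K : Set (EuclideanSpace ℝ (Fin 3))) (hc : IsCompact K) (hconv : Convex ℝ K)
    (hint : (interior K).Nonempty)
    (c : EuclideanSpace ℝ (Fin 3)) (s : ℝ) (hs : 0 < s)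
    (hsym : ∀ p ∈ K, c - s⁻¹ • (p - c) ∈ K)
    (e : ι → Fin 3 → EuclideanSpace ℝ (Fin 3)) (he : ∀ i, Orthonormal ℝ (e i))
    (B : ι → Set (ℝ × ℝ))
    (hcov : ∀ x ∈ K, ∃ i, (inner ℝ (e i 0) x, inner ℝ (e i 1) x) ∈ B i) :
    ENNReal.ofReal (2 / (1 + s) ^ 2) *
        (⨅ f : Fin 3 → EuclideanSpace ℝ (Fin 3), ⨅ _ : Orthonormal ℝ f,
          volume ((fun x => ((inner ℝ (f 0) x, inner ℝ (f 1) x) : ℝ × ℝ)) '' K))
      ≤ ∑ i, volume (B i) :=
  Vale.Agent.Lib.P243S.half_area hc hconv hint c hs hsym e he B hcov
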