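import Vale.Agent.Results.P243.CoveringBounds
import Vale.Agent.Results.P243.HalfAreaAsymmetry

open MeasureTheory

/-- **Bang's half-area problem in three dimensions: the bounds settled so far, in one statement.**
For a finite covering of a convex body `K` in Euclidean three-space by cylinders, with axis `e i 2`
and base `B i` in the orthonormal coordinates `(inner (e i 0) x, inner (e i 1) x)`:
(A) the directionwise relative area `R` satisfies `R ≥ 1 / 3 + 10 ^ (-39)`, `R ≥ t` for every `t` in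
`[0, 1]` with `3 t - 2 t √(t / m) ≤ 1`, and `R ≥ 1 / 2` for at most two cylinders; (B) if
`c - s⁻¹ (p - c) ∈ K` for all `p ∈ K`, for a point `c` and `s > 0`, then the total base area is at
least `2 / (1 + s) ^ 2` times the smallest area of an orthogonal projection of `K`; so `s = 1`, a
centrally symmetric `K`, gives the half-area inequality. -/
theorem Vale.Agent.Results.P243.A00CoveringSummary.result :
    (∀ {ι : Type} [Fintype ι]
      (K : Set (EuclideanSpace ℝ (Fin 3))) (_ : IsCompact K) (_ : Convex ℝ K)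
      (_ : (interior K).Nonempty)
      (e : ι → Fin 3 → EuclideanSpace ℝ (Fin 3)) (_ : ∀ i, Orthonormal ℝ (e i))
      (B : ι → Set (ℝ × ℝ))
      (_ : ∀ x ∈ K, ∃ i, (inner ℝ (e i 0) x, inner ℝ (e i 1) x) ∈ B i)
      (R : ENNReal)
      (_ : R = ∑ i, volume (B i) /
          volume ((fun x => ((inner ℝ (e i 0) x, inner ℝ (e i 1) x) : ℝ × ℝ)) '' K)),
      ENNReal.ofReal (1 / 3 + 1 / 10 ^ 39) ≤ R ∧
        (∀ t : ℝ, 0 ≤ t → t ≤ 1 → 3 * t - 2 * t * √(t / Fintype.card ι) ≤ 1 →
          ENNReal.ofReal t ≤ R) ∧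
        (Fintype.card ι ≤ 2 → ENNReal.ofReal (1 / 2) ≤ R)) ∧
    (∀ {ι : Type} [Fintype ι]
      (K : Set (EuclideanSpace ℝ (Fin 3))) (_ : IsCompact K) (_ : Convex ℝ K)
      (_ : (interior K).Nonempty)
      (c : EuclideanSpace ℝ (Fin 3)) (s : ℝ) (_ : 0 < s)
      (_ : ∀ p ∈ K, c - s⁻¹ • (p - c) ∈ K)
      (e : ι → Fin 3 → EuclideanSpace ℝ (Fin 3)) (_ : ∀ i, Orthonormal ℝ (e i))
      (B : ι → Set (ℝ × ℝ))
      (_ : ∀ x ∈ K, ∃ i, (inner ℝ (e i 0) x, inner ℝ (e i 1) x) ∈ B i),
      ENNReal.ofReal (2 / (1 + s) ^ 2) *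
          (⨅ f : Fin 3 → EuclideanSpace ℝ (Fin 3), ⨅ _ : Orthonormal ℝ f,
            volume ((fun x => ((inner ℝ (f 0) x, inner ℝ (f 1) x) : ℝ × ℝ)) '' K))
        ≤ ∑ i, volume (B i)) :=
  ⟨fun K hc hconv hint e he B hcov R hR =>
      Vale.Agent.Results.P243.CoveringBounds.result K hc hconv hint e he B hcov R hR,
   fun K hc hconv hint c s hs hsym e he B hcov =>
      Vale.Agent.Results.P243.HalfAreaAsymmetry.result K hc hconv hint c s hs hsym e he B hcov⟩
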