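import Vale.Agent.Lib.P243.MainPhi

open MeasureTheory

/-- Lower bounds for the directionwise relative area `R` of a finite covering of a convex body in
Euclidean three-space by cylinders.  The cylinder number `i` has axis direction `e i 2`, where
`e i` is an orthonormal frame; its base `B i` is described in the orthonormal coordinates
`(inner (e i 0) x, inner (e i 1) x)` of the plane orthogonal to the axis, and `volume` on `ℝ × ℝ`
is planar Lebesgue measure, so that the denominator is the area of the orthogonal projection of `K`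
along the axis.  Bases may be arbitrary sets (outer measure).  With `m` the number of cylinders:
(1) `R ≥ 1 / 3 + 10 ^ (-39)` always; (2) `R ≥ t` for every `t` in `[0, 1]` with
`3 t - 2 t √(t / m) ≤ 1`; (3) for at most two cylinders `R ≥ 1 / 2`, the value of the half-area
conjecture, which is attained by the regular tetrahedron. -/
theorem Vale.Agent.Results.P243.CoveringBounds.result {ι : Type*} [Fintype ι]
    (K : Set (EuclideanSpace ℝ (Fin 3))) (hc : IsCompact K) (hconv : Convex ℝ K)
    (hint : (interior K).Nonempty)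
    (e : ι → Fin 3 → EuclideanSpace ℝ (Fin 3)) (he : ∀ i, Orthonormal ℝ (e i))
    (B : ι → Set (ℝ × ℝ))
    (hcov : ∀ x ∈ K, ∃ i, (inner ℝ (e i 0) x, inner ℝ (e i 1) x) ∈ B i)
    (R : ENNReal)
    (hR : R = ∑ i, volume (B i) /
        volume ((fun x => ((inner ℝ (e i 0) x, inner ℝ (e i 1) x) : ℝ × ℝ)) '' K)) :
    ENNReal.ofReal (1 / 3 + 1 / 10 ^ 39) ≤ R ∧
      (∀ t : ℝ, 0 ≤ t → t ≤ 1 → 3 * t - 2 * t * √(t / Fintype.card ι) ≤ 1 →
        ENNReal.ofReal t ≤ R) ∧
      (Fintype.card ι ≤ 2 → ENNReal.ofReal (1 / 2) ≤ R) := by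
  subst hR
  exact ⟨Vale.Agent.Lib.P243.main_bound K hc hconv hint e he B hcov,
    fun t ht0 ht1 ht => Vale.Agent.Lib.P243.finite_bound hc hconv hint e he B hcov ht0 ht1 ht,
    fun hm => Vale.Agent.Lib.P243.two_bound hc hconv hint e he B hcov hm⟩
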