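import Vale.Agent.Lib.P243.Main

open MeasureTheory

/-- A strict improvement of the bound `1 / 3` for the directionwise relative area of a finite
covering of a convex body in Euclidean three-space by cylinders.  The cylinder number `i` has axis
direction `e i 2`, where `e i` is an orthonormal frame; its base `B i` is described in the
orthonormal coordinates `(inner (e i 0) x, inner (e i 1) x)` of the plane orthogonal to the axis,
and `volume` on `ℝ × ℝ` is planar Lebesgue measure, so that the denominator is the area of the
orthogonal projection of `K` along the axis.  Bases may be arbitrary sets (outer measure). -/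
theorem Vale.Agent.Results.P243.CylinderGain.result {ι : Type*} [Fintype ι]
    (K : Set (EuclideanSpace ℝ (Fin 3))) (hc : IsCompact K) (hconv : Convex ℝ K)
    (hint : (interior K).Nonempty)
    (e : ι → Fin 3 → EuclideanSpace ℝ (Fin 3)) (he : ∀ i, Orthonormal ℝ (e i))
    (B : ι → Set (ℝ × ℝ))
    (hcov : ∀ x ∈ K, ∃ i, (inner ℝ (e i 0) x, inner ℝ (e i 1) x) ∈ B i) :
    ENNReal.ofReal (1 / 3 + 1 / 10 ^ 39) ≤
      ∑ i, volume (B i) /
        volume ((fun x => ((inner ℝ (e i 0) x, inner ℝ (e i 1) x) : ℝ × ℝ)) '' K) :=
  Vale.Agent.Lib.P243.main_bound K hc hconv hint e he B hcov
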