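import Vale.Agent.Lib.P243S.Final

open MeasureTheory

/-- Bang's half-area bound for centrally symmetric convex bodies in Euclidean three-space: every
finite covering of a body `K` with center of symmetry `c` by cylinders has total base area at least
half of the smallest area of an orthogonal projection of `K`.  The cylinder number `i` has axis
direction `e i 2`, where `e i` is an orthonormal frame; its base `B i` is described in the
orthonormal coordinates `(inner (e i 0) x, inner (e i 1) x)` of the plane orthogonal to the axis,
and `volume` on `ℝ × ℝ` is planar Lebesgue measure.  Bases may be arbitrary sets (outer measure).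
The infimum runs over all orthonormal frames `f`, that is over all projection directions `f 2`, and
the set in it is the orthogonal projection of `K` along `f 2` written in orthonormal coordinates. -/
theorem Vale.Agent.Results.P243.HalfAreaSymmetric.result {ι : Type*} [Fintype ι]
    (K : Set (EuclideanSpace ℝ (Fin 3))) (hc : IsCompact K) (hconv : Convex ℝ K)
    (hint : (interior K).Nonempty)
    (c : EuclideanSpace ℝ (Fin 3)) (hsym : ∀ p ∈ K, (2 : ℝ) • c - p ∈ K)
    (e : ι → Fin 3 → EuclideanSpace ℝ (Fin 3)) (he : ∀ i, Orthonormal ℝ (e i))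
    (B : ι → Set (ℝ × ℝ))
    (hcov : ∀ x ∈ K, ∃ i, (inner ℝ (e i 0) x, inner ℝ (e i 1) x) ∈ B i) :
    ENNReal.ofReal (1 / 2) *
        (⨅ f : Fin 3 → EuclideanSpace ℝ (Fin 3), ⨅ _ : Orthonormal ℝ f,
          volume ((fun x => ((inner ℝ (f 0) x, inner ℝ (f 1) x) : ℝ × ℝ)) '' K))
      ≤ ∑ i, volume (B i) := by
  have h := Vale.Agent.Lib.P243S.half_area hc hconv hint c (s := 1) one_pos
    (fun p hp => by
      have h2 := hsym p hp
      have h3 : c - (1 : ℝ)⁻¹ • (p - c) = (2 : ℝ) • c - p := by
        rw [inv_one, one_smul, two_smul]
        abel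
      rw [h3]
      exact h2) e he B hcov
  have h5 : (2 : ℝ) / (1 + 1) ^ 2 = 1 / 2 := by norm_num
  rw [h5] at h
  exact h
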